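import Crest.Agent.R345.Check

/-! The explicit rank-six PPT state on `4 × 4` and the certificate that no product of two quadrics
lies in the span of the maximal minors of `a ↦ (K₁ a, …, K₆ a)`. -/

namespace Crest.Agent.R345

open Matrix

def Kl : List (List (List ℤ)) :=
  [[[-1, 1, 0, 0], [1, -40, 0, 0], [1, 82, 0, 0], [1, 28, 0, 0]],
   [[-1, -1, 2, 0], [1, 40, 86, 0], [1, -82, 20, 0], [1, -28, -22, 0]],
   [[-1, -1, -1, 3], [1, 40, -43, 216], [1, -82, -10, -87], [1, -28, 11, -249]],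
   [[-5, -5, -5, -5], [1, 40, -43, -72], [1, -82, -10, 29], [1, -28, 11, 83]],
   [[0, 0, 0, 0], [1, 40, -43, -72], [1, -82, -10, 29], [2, -56, 22, 166]],
   [[0, 0, 0, 0], [5, 200, -215, -360], [6, -492, -60, 174], [0, 0, 0, 0]]]

/-- Kraus operators (up to the weights `D`) of a PPT map on `4 × 4` matrices. -/
def K (i : Fin 6) : Matrix (Fin 4) (Fin 4) ℤ :=
  Matrix.of fun b a => ((Kl.getD i []).getD b []).getD a 0

def D : Fin 6 → ℕ := ![150, 50, 25, 15, 30, 1]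

theorem D_pos : ∀ i, 0 < D i := by decide

theorem gram_symm : ∀ b a b2 a2 : Fin 4, ∑ i, (D i : ℤ) * K i b a * K i b2 a2
    = ∑ i, (D i : ℤ) * K i b2 a * K i b a2 := by
  decide +kernel

/-- the ten quadratic monomials in four variables. -/
def mon : Fin 10 → Fin 4 × Fin 4 :=
  ![(0, 0), (0, 1), (0, 2), (0, 3), (1, 1), (1, 2), (1, 3), (2, 2), (2, 3), (3, 3)]

noncomputable def det4 (y1 y2 y3 y4 : Fin 4 → ℂ) : ℂ := Matrix.det (Matrix.of ![y1, y2, y3, y4])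

def Jt : Fin 15 → Fin 4 → Fin 6 :=
  ![![0, 1, 2, 3], ![0, 1, 2, 4], ![0, 1, 2, 5], ![0, 1, 3, 4], ![0, 1, 3, 5], ![0, 1, 4, 5], ![0, 2, 3, 4], ![0, 2, 3, 5], ![0, 2, 4, 5], ![0, 3, 4, 5], ![1, 2, 3, 4], ![1, 2, 3, 5], ![1, 2, 4, 5], ![1, 3, 4, 5], ![2, 3, 4, 5]]

def ptsl : List (List ℤ) :=
  [[1, 2, 217, 309], [1, 13, 275, 333], [1, 17, 126, 128], [1, 26, 285, 35], [1, 31, 267, 385], [1, 48, 47, 398], [1, 52, 149, 384], [1, 79, 44, 260], [1, 97, 318, 320], [1, 106, 231, 61], [1, 118, 99, 380], [1, 143, 25, 374], [1, 176, 283, 280], [1, 201, 53, 316], [1, 304, 171, 218], [1, 309, 355, 337], [1, 332, 297, 366], [1, 334, 210, 319], [1, 344, 91, 372], [1, 354, 307, 227]]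

def auxl : List (List ℤ) :=
  [[0, 0, 0, 4], [0, 0, 1, 3], [0, 0, 2, 2], [0, 0, 3, 1], [0, 0, 4, 0], [0, 1, 0, 3], [0, 1, 1, 2], [0, 1, 2, 1], [0, 1, 3, 0], [0, 2, 0, 2], [0, 2, 1, 1], [0, 2, 2, 0], [0, 3, 0, 1], [0, 3, 1, 0], [0, 4, 0, 0]]

def Ninvl : List (List ℤ) :=
  [[166, 39, 24, 175, 161, 365, 297, 36, 61, 111, 116, 172, 178, 37, 74],
   [261, 332, 361, 350, 229, 58, 51, 172, 343, 0, 51, 172, 343, 0, 0],
   [281, 351, 41, 327, 395, 314, 74, 6, 87, 0, 74, 6, 87, 0, 0],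
   [295, 358, 352, 362, 357, 58, 39, 44, 343, 0, 39, 44, 343, 0, 0],
   [101, 192, 28, 281, 108, 173, 31, 244, 91, 29, 31, 244, 91, 29, 0],
   [44, 361, 337, 106, 338, 86, 212, 275, 172, 0, 0, 0, 0, 0, 0],
   [348, 207, 165, 0, 0, 0, 0, 0, 0, 0, 0, 0, 0, 0, 0],
   [71, 93, 209, 0, 0, 0, 0, 0, 0, 0, 0, 0, 0, 0, 0],
   [291, 138, 29, 50, 219, 31, 0, 0, 0, 0, 0, 0, 0, 0, 0],
   [8, 364, 375, 35, 134, 272, 70, 268, 143, 0, 0, 0, 0, 0, 0],
   [144, 101, 27, 0, 0, 0, 0, 0, 0, 0, 0, 0, 0, 0, 0],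
   [208, 316, 240, 230, 234, 154, 0, 0, 0, 0, 0, 0, 0, 0, 0],
   [313, 377, 70, 259, 250, 86, 117, 99, 172, 0, 0, 0, 0, 0, 0],
   [204, 153, 290, 103, 18, 31, 0, 0, 0, 0, 0, 0, 0, 0, 0],
   [252, 335, 92, 140, 154, 123, 287, 314, 384, 78, 0, 0, 0, 0, 0]]

def pts (k : ℕ) (c : Fin 4) : ℤ := (ptsl.getD k []).getD c 0
def aux (s : Fin 15) (c : Fin 4) : ℤ := (auxl.getD s []).getD c 0
def Ninv (s J : Fin 15) : ℤ := (Ninvl.getD s []).getD J 0

/-- explicit `4 × 4` determinant. -/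
def det4R {R : Type*} [CommRing R] (x y z w : Fin 4 → R) : R :=
  (x 0 * y 1 - x 1 * y 0) * (z 2 * w 3 - z 3 * w 2)
  - (x 0 * y 2 - x 2 * y 0) * (z 1 * w 3 - z 3 * w 1)
  + (x 0 * y 3 - x 3 * y 0) * (z 1 * w 2 - z 2 * w 1)
  + (x 1 * y 2 - x 2 * y 1) * (z 0 * w 3 - z 3 * w 0)
  - (x 1 * y 3 - x 3 * y 1) * (z 0 * w 2 - z 2 * w 0)
  + (x 2 * y 3 - x 3 * y 2) * (z 0 * w 1 - z 1 * w 0)

theorem det4_eq (x y z w : Fin 4 → ℂ) : det4 x y z w = det4R x y z w := by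
  simp [det4, det4R, Matrix.det_succ_row_zero, Fin.sum_univ_succ, Fin.succAbove]
  ring

def mv (i : Fin 6) (a : Fin 4 → ℤ) (b : Fin 4) : ℤ :=
  K i b 0 * a 0 + K i b 1 * a 1 + K i b 2 * a 2 + K i b 3 * a 3

def mZ (J : Fin 15) (a : Fin 4 → ℤ) : ℤ :=
  det4R (mv (Jt J 0) a) (mv (Jt J 1) a) (mv (Jt J 2) a) (mv (Jt J 3) a)

theorem chk_pts : ∀ k < 20, ∀ J : Fin 15, mZ J (pts k) % 401 = 0 := by
  decide +kernel

theorem chk_inv : ∀ J J' : Fin 15,
    ((∑ s, mZ J (aux s) * Ninv s J') - (if J = J' then 1 else 0)) % 401 = 0 := by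
  decide +kernel

theorem chk_W : ∀ k < 20, ∀ s : Fin 10,
    (pts k (mon s).1 * pts k (mon s).2 - (W k s : ℤ)) % 401 = 0 := by
  decide +kernel

theorem Jt_surj' : ∀ i j k l : Fin 6, (i < j ∧ j < k ∧ k < l) →
    ∃ J : Fin 15, (Jt J 0, Jt J 1, Jt J 2, Jt J 3) = (i, j, k, l) := by
  decide +kernel

theorem Jt_surj (i j k l : Fin 6) (h1 : i < j) (h2 : j < k) (h3 : k < l) :
    ∃ J : Fin 15, Jt J 0 = i ∧ Jt J 1 = j ∧ Jt J 2 = k ∧ Jt J 3 = l := by
  simpa using Jt_surj' i j k l ⟨h1, h2, h3⟩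

/-- the complex vectors `K i a`. -/
noncomputable def Ka (i : Fin 6) (a : Fin 4 → ℂ) : Fin 4 → ℂ := (K i).map Int.cast *ᵥ a

noncomputable def mC (J : Fin 15) (a : Fin 4 → ℂ) : ℂ :=
  det4 (Ka (Jt J 0) a) (Ka (Jt J 1) a) (Ka (Jt J 2) a) (Ka (Jt J 3) a)

lemma Ka_cast (i : Fin 6) (a : Fin 4 → ℤ) :
    Ka i (fun c => (a c : ℂ)) = fun b => (mv i a b : ℂ) := by
  funext b
  simp [Ka, mv, Matrix.mulVec, dotProduct, Fin.sum_univ_four]

lemma mC_cast (J : Fin 15) (a : Fin 4 → ℤ) : mC J (fun c => (a c : ℂ)) = (mZ J a : ℂ) := by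
  simp only [mC, mZ, Ka_cast, det4_eq, det4R]
  push_cast
  ring

lemma det4_fun (y : Fin 6 → Fin 4 → ℂ) (f : Fin 4 → Fin 6) :
    det4 (y (f 0)) (y (f 1)) (y (f 2)) (y (f 3)) = Matrix.det (Matrix.of fun r => y (f r)) := by
  unfold det4
  congr 1
  ext r c
  fin_cases r <;> rfl

lemma det4_reduce (i j k l : Fin 6) : ∃ (J : Fin 15) (ε : ℂ), ∀ y : Fin 6 → Fin 4 → ℂ,
    det4 (y i) (y j) (y k) (y l)
      = ε * det4 (y (Jt J 0)) (y (Jt J 1)) (y (Jt J 2)) (y (Jt J 3)) := by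
  set f : Fin 4 → Fin 6 := ![i, j, k, l] with hf
  have e : ∀ y : Fin 6 → Fin 4 → ℂ,
      det4 (y i) (y j) (y k) (y l) = Matrix.det (Matrix.of fun r => y (f r)) :=
    fun y => det4_fun y f
  by_cases hinj : Function.Injective f
  · have hs : StrictMono (f ∘ Tuple.sort f) :=
      (Tuple.monotone_sort f).strictMono_of_injective (hinj.comp (Tuple.sort f).injective)
    obtain ⟨J, h0, h1, h2, h3⟩ := Jt_surj _ _ _ _ (hs (show (0 : Fin 4) < 1 by decide))
      (hs (show (1 : Fin 4) < 2 by decide)) (hs (show (2 : Fin 4) < 3 by decide))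
    refine ⟨J, ((Equiv.Perm.sign (Tuple.sort f) : ℤ) : ℂ), fun y => ?_⟩
    rw [h0, h1, h2, h3, det4_fun y (f ∘ Tuple.sort f), e]
    have := Matrix.det_permute (Tuple.sort f) (Matrix.of fun r => y (f r))
    have e2 : (Matrix.of fun r => y ((f ∘ Tuple.sort f) r))
        = (Matrix.of fun r => y (f r)).submatrix (Tuple.sort f) id := rfl
    rw [e2, this, ← mul_assoc]
    rcases Int.units_eq_one_or (Equiv.Perm.sign (Tuple.sort f)) with h | h <;> simp [h]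
  · refine ⟨0, 0, fun y => ?_⟩
    rw [zero_mul, e]
    obtain ⟨r, r', h1, h2⟩ := Function.not_injective_iff.1 hinj
    exact Matrix.det_zero_of_row_eq h2 (by funext c; simp [h1])

lemma reduce15 (c : Fin 6 → Fin 6 → Fin 6 → Fin 6 → ℂ) : ∃ c' : Fin 15 → ℂ, ∀ a : Fin 4 → ℂ,
    ∑ i, ∑ j, ∑ k, ∑ l, c i j k l * det4 (Ka i a) (Ka j a) (Ka k a) (Ka l a)
      = ∑ J, c' J * mC J a := by
  choose Jf ε h using det4_reduce
  refine ⟨fun J => ∑ i, ∑ j, ∑ k, ∑ l, if Jf i j k l = J then c i j k l * ε i j k l else 0,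
    fun a => ?_⟩
  simp only [Finset.sum_mul]
  rw [Finset.sum_comm (s := (Finset.univ : Finset (Fin 15)))]
  refine Finset.sum_congr rfl fun i _ => ?_
  rw [Finset.sum_comm (s := (Finset.univ : Finset (Fin 15)))]
  refine Finset.sum_congr rfl fun j _ => ?_
  rw [Finset.sum_comm (s := (Finset.univ : Finset (Fin 15)))]
  refine Finset.sum_congr rfl fun k _ => ?_
  rw [Finset.sum_comm (s := (Finset.univ : Finset (Fin 15)))]
  refine Finset.sum_congr rfl fun l _ => ?_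
  simp only [ite_mul, zero_mul, Finset.sum_ite_eq, Finset.mem_univ, if_true]
  rw [h i j k l (fun i => Ka i a), mC, mul_assoc]

lemma exists_val : ∃ O : ValuationSubring ℂ, O.valuation (401 : ℂ) < 1 := by
  let A : Subring ℂ := (Int.castRingHom ℂ).range
  have hI : Ideal.span {(401 : A)} ≠ ⊤ := by
    rw [Ne, Ideal.span_singleton_eq_top, isUnit_iff_exists_inv]
    rintro ⟨⟨b, n, rfl⟩, hb⟩
    have h1 : (401 : ℂ) * (n : ℂ) = 1 := congrArg Subtype.val hb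
    have h2 : (401 : ℤ) * n = 1 := by exact_mod_cast h1
    omega
  obtain ⟨B, -, hB⟩ := Ideal.image_subset_nonunits_valuationSubring _ hI
  exact ⟨B, B.mem_nonunits_iff.1 (hB ⟨401, Ideal.mem_span_singleton_self _, rfl⟩)⟩

lemma val_int (O : ValuationSubring ℂ) (n : ℤ) : O.valuation (n : ℂ) ≤ 1 :=
  (O.valuation_le_one_iff _).2 (intCast_mem O n)

lemma exists_max {ι : Type*} [Fintype ι] [Nonempty ι] (O : ValuationSubring ℂ) (u : ι → ℂ) :
    ∃ s0, ∀ s, O.valuation (u s) ≤ O.valuation (u s0) := by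
  obtain ⟨s0, -, h⟩ := Finset.exists_max_image Finset.univ (fun s => O.valuation (u s))
    Finset.univ_nonempty
  exact ⟨s0, fun s => h s (Finset.mem_univ _)⟩

lemma normalize (O : ValuationSubring ℂ) (u : Fin 10 → ℂ) (hu : u ≠ 0) :
    ∃ (t : ℂ) (U : Fin 10 → O), t ≠ 0 ∧ (∀ s, u s = t * U s) ∧ ∃ s0, U s0 = 1 := by
  obtain ⟨s0, h⟩ := exists_max O u
  have h0 : u s0 ≠ 0 := by
    intro h0
    apply hu
    funext s
    have := h s
    rw [h0, map_zero, le_zero_iff, map_eq_zero] at this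
    exact this
  have hv : O.valuation (u s0) ≠ 0 := by simpa using h0
  refine ⟨u s0, fun s => ⟨u s / u s0, ?_⟩, h0, fun s => ?_, s0, ?_⟩
  · rw [← O.valuation_le_one_iff, map_div₀, div_le_one₀ (zero_lt_iff.2 hv)]
    exact h s
  · field_simp
  · ext; simp [h0]

lemma coeff_le (O : ValuationSubring ℂ) (hO : O.valuation (401 : ℂ) < 1) (c : Fin 15 → ℂ)
    (h : ∀ s, O.valuation (∑ J, c J * (mZ J (aux s) : ℂ)) ≤ 1) (J : Fin 15) :
    O.valuation (c J) ≤ 1 := by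
  obtain ⟨J0, hJ0⟩ := exists_max O c
  refine (hJ0 J).trans ?_
  by_contra hlt
  rw [not_le] at hlt
  have he : ∀ J, ∃ e : ℤ, (∑ s, mZ J (aux s) * Ninv s J0) = (if J = J0 then 1 else 0) + 401 * e := by
    intro J
    obtain ⟨e, he⟩ := Int.dvd_of_emod_eq_zero (chk_inv J J0)
    exact ⟨e, by linarith⟩
  choose e he using he
  have key : c J0 = (∑ s, (∑ J, c J * (mZ J (aux s) : ℂ)) * (Ninv s J0 : ℂ))
      - 401 * ∑ J, c J * (e J : ℂ) := by
    simp only [Finset.sum_mul]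
    rw [Finset.sum_comm]
    have : ∀ J, ∑ s, c J * (mZ J (aux s) : ℂ) * (Ninv s J0 : ℂ)
        = (if J = J0 then c J else 0) + 401 * (c J * (e J : ℂ)) := by
      intro J
      have h1 : ((∑ s, mZ J (aux s) * Ninv s J0 : ℤ) : ℂ)
          = (((if J = J0 then 1 else 0) + 401 * e J : ℤ) : ℂ) := by rw [he J]
      push_cast at h1
      simp only [mul_assoc]
      rw [← Finset.mul_sum, h1]
      split_ifs <;> ring
    simp only [this, Finset.sum_add_distrib, Finset.sum_ite_eq', Finset.mem_univ, if_true,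
      ← Finset.mul_sum]
    ring
  have h1 : O.valuation (∑ s, (∑ J, c J * (mZ J (aux s) : ℂ)) * (Ninv s J0 : ℂ))
      < O.valuation (c J0) := by
    refine lt_of_le_of_lt (Valuation.map_sum_le _ fun s _ => ?_) hlt
    rw [map_mul]
    exact mul_le_one' (h s) (val_int O _)
  have h2 : O.valuation (401 * ∑ J, c J * (e J : ℂ)) < O.valuation (c J0) := by
    have h3 : O.valuation (∑ J, c J * (e J : ℂ)) ≤ O.valuation (c J0) := by
      refine Valuation.map_sum_le _ fun J _ => ?_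
      rw [map_mul]
      exact (mul_le_of_le_one_right' (val_int O _)).trans (hJ0 J)
    rw [map_mul]
    calc O.valuation 401 * O.valuation (∑ J, c J * (e J : ℂ))
        ≤ O.valuation 401 * O.valuation (c J0) := mul_le_mul_right h3 _
      _ < 1 * O.valuation (c J0) := mul_lt_mul_of_pos_right hO (zero_lt_one.trans hlt)
      _ = _ := one_mul _
  have := Valuation.map_sub_lt _ h1 h2
  rw [← key] at this
  exact lt_irrefl _ this

theorem no_prod' (u v : Fin 10 → ℂ) (c : Fin 15 → ℂ)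
    (h : ∀ a : Fin 4 → ℂ, (∑ s, u s * (a (mon s).1 * a (mon s).2))
      * (∑ s, v s * (a (mon s).1 * a (mon s).2)) = ∑ J, c J * mC J a) : u = 0 ∨ v = 0 := by
  by_contra hne
  rw [not_or] at hne
  obtain ⟨O, hO⟩ := exists_val
  obtain ⟨t, U, ht, hU, s0, hs0⟩ := normalize O u hne.1
  obtain ⟨t', V, ht', hV, s1, hs1⟩ := normalize O v hne.2
  let G : (Fin 10 → O) → (Fin 4 → ℤ) → O := fun U a =>
    ∑ s, U s * ((a (mon s).1 * a (mon s).2 : ℤ) : O)
  have hG : ∀ a : Fin 4 → ℤ, ((G U a * G V a : O) : ℂ) = ∑ J, c J / (t * t') * (mZ J a : ℂ) := by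
    intro a
    have := h (fun c => (a c : ℂ))
    simp only [mC_cast, hU, hV, mul_assoc, ← Finset.mul_sum] at this
    have e : ∑ J, c J / (t * t') * (mZ J a : ℂ) = (∑ J, c J * (mZ J a : ℂ)) / (t * t') := by
      rw [Finset.sum_div]
      exact Finset.sum_congr rfl fun J _ => by ring
    rw [e, ← this]
    simp only [G]
    push_cast
    field_simp
  have hc := coeff_le O hO (fun J => c J / (t * t')) (fun s => by
    rw [← hG]; exact O.valuation_le_one _)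
  let φ := IsLocalRing.residue O
  have h401 : ((401 : ℕ) : IsLocalRing.ResidueField O) = 0 := by
    rw [← map_natCast φ, IsLocalRing.residue_eq_zero_iff, O.valuation_lt_one_iff]
    exact_mod_cast hO
  have : CharP (IsLocalRing.ResidueField O) 401 :=
    (CharP.charP_iff_prime_eq_zero (by norm_num)).2 h401
  obtain ⟨k, hk, h1, h2⟩ := cover (fun s => φ (U s)) (fun s => φ (V s))
    (Function.ne_iff.2 ⟨s0, by simp [hs0]⟩) (Function.ne_iff.2 ⟨s1, by simp [hs1]⟩)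
  have hφ : ∀ U : Fin 10 → O, φ (G U (pts k)) = ∑ s, φ (U s) * (W k s : _) := by
    intro U
    simp only [G, map_sum, map_mul, map_intCast]
    refine Finset.sum_congr rfl fun s _ => ?_
    congr 1
    obtain ⟨e, he⟩ := Int.dvd_of_emod_eq_zero (chk_W k hk s)
    have : pts k (mon s).1 * pts k (mon s).2 = (W k s : ℤ) + (401 : ℕ) * e := by
      push_cast; linarith
    rw [this, Int.cast_add, Int.cast_mul, Int.cast_natCast, Int.cast_natCast, h401]
    simp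
  have hz : φ (G U (pts k) * G V (pts k)) = 0 := by
    rw [IsLocalRing.residue_eq_zero_iff, O.valuation_lt_one_iff, hG]
    refine Valuation.map_sum_lt _ one_ne_zero fun J _ => ?_
    obtain ⟨e, he⟩ := Int.dvd_of_emod_eq_zero (chk_pts k hk J)
    rw [he, map_mul]
    push_cast
    rw [map_mul]
    calc O.valuation (c J / (t * t')) * (O.valuation 401 * O.valuation (e : ℂ))
        ≤ 1 * (O.valuation 401 * 1) :=
          mul_le_mul' (hc J) (mul_le_mul_right (val_int O _) _)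
      _ < 1 := by simpa using hO
  rw [map_mul, hφ, hφ] at hz
  exact (mul_ne_zero h1 h2) hz

/-- No product of two nonzero quadrics is a combination of the `4 × 4` minors. -/
theorem no_prod (u v : Fin 10 → ℂ) (c : Fin 6 → Fin 6 → Fin 6 → Fin 6 → ℂ)
    (h : ∀ a : Fin 4 → ℂ, (∑ s, u s * (a (mon s).1 * a (mon s).2))
      * (∑ s, v s * (a (mon s).1 * a (mon s).2))
      = ∑ i, ∑ j, ∑ k, ∑ l, c i j k l * det4 ((K i).map Int.cast *ᵥ a) ((K j).map Int.cast *ᵥ a)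
          ((K k).map Int.cast *ᵥ a) ((K l).map Int.cast *ᵥ a)) : u = 0 ∨ v = 0 := by
  obtain ⟨c', hc'⟩ := reduce15 c
  exact no_prod' u v c' fun a => (h a).trans (hc' a)

theorem det_ne : ∃ (a : Fin 4 → ℂ) (i j k l : Fin 6),
    det4 ((K i).map Int.cast *ᵥ a) ((K j).map Int.cast *ᵥ a)
      ((K k).map Int.cast *ᵥ a) ((K l).map Int.cast *ᵥ a) ≠ 0 := by
  have h : ∃ J, mZ J (fun _ => 1) ≠ 0 := by decide +kernel
  obtain ⟨J, hJ⟩ := h
  refine ⟨fun _ => ((1 : ℤ) : ℂ), Jt J 0, Jt J 1, Jt J 2, Jt J 3, ?_⟩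
  have := mC_cast J (fun _ => 1)
  change mC J (fun _ => ((1 : ℤ) : ℂ)) ≠ 0
  rw [this]
  exact_mod_cast hJ

end Crest.Agent.R345
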