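import Crest.Agent.R345.Maps

/-! The channel on `21 = 10 + 10 + 1` levels. -/

namespace Crest.Agent.R345

open Matrix Crest.Quantum
open scoped ComplexOrder Kronecker

section general

variable {ι κ d e : Type*} [Fintype ι] [Fintype κ] [Fintype d] [Fintype e]

omit [Fintype e] in
lemma kraus_elim (A : ι → Matrix e d ℂ) (B : κ → Matrix e d ℂ) (X : Matrix d d ℂ) :
    kraus (Sum.elim A B) X = kraus A X + kraus B X := by
  simp [kraus, Fintype.sum_sum_type]

omit [Fintype e] in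
lemma kraus_smul (A : ι → Matrix e d ℂ) {ε : ℝ} (hε : 0 ≤ ε) (X : Matrix d d ℂ) :
    kraus (fun i => ((Real.sqrt ε : ℝ) : ℂ) • A i) X = (ε : ℂ) • kraus A X := by
  have h : ((Real.sqrt ε : ℝ) : ℂ) * ((Real.sqrt ε : ℝ) : ℂ) = (ε : ℂ) := by
    rw [← Complex.ofReal_mul, Real.mul_self_sqrt hε]
  simp only [kraus, Finset.smul_sum, Matrix.conjTranspose_smul, Matrix.smul_mul, Matrix.mul_smul,
    smul_smul, RCLike.star_def, Complex.conj_ofReal, h]

lemma trace_kraus (A : ι → Matrix e d ℂ) (X : Matrix d d ℂ) :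
    (kraus A X).trace = ((∑ i, (A i)ᴴ * A i) * X).trace := by
  simp only [kraus, Matrix.trace_sum, Matrix.sum_mul]
  refine Finset.sum_congr rfl fun i _ => ?_
  rw [Matrix.trace_mul_comm, Matrix.mul_assoc]

lemma kraus_dump [DecidableEq d] (B : Matrix d d ℂ) (z : d) (X : Matrix d d ℂ) :
    kraus (fun j => Matrix.of fun a b => if a = z then B j b else 0) X
      = (Bᴴ * B * X).trace • Matrix.single z z (1 : ℂ) := by
  have ht : (Bᴴ * B * X).trace = ∑ a, ∑ a', (∑ j, B j a * star (B j a')) * X a a' := by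
    simp only [Matrix.trace, Matrix.diag, Matrix.mul_apply, Matrix.conjTranspose_apply]
    rw [Finset.sum_comm]
    refine Finset.sum_congr rfl fun a _ => Finset.sum_congr rfl fun a' _ => ?_
    congr 1
    exact Finset.sum_congr rfl fun j _ => mul_comm _ _
  ext p q
  rw [kraus_apply, ht]
  by_cases hp : p = z
  · by_cases hq : q = z
    · simp [hp, hq]
    · simp [hq, Ne.symm hq]
  · simp [hp, Ne.symm hp]

open scoped MatrixOrder Matrix.Norms.L2Operator in
lemma exists_eps [DecidableEq d] (A : Matrix d d ℂ) (hA : A.IsHermitian) :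
    ∃ ε : ℝ, 0 < ε ∧ ∃ B : Matrix d d ℂ, 1 - (ε : ℂ) • A = Bᴴ * B := by
  have h1 : A ≤ algebraMap ℝ _ ‖A‖ := IsSelfAdjoint.le_algebraMap_norm_self hA
  rw [Matrix.le_iff] at h1
  have hn : 0 < ‖A‖ + 1 := by positivity
  refine ⟨(‖A‖ + 1)⁻¹, inv_pos.2 hn, ?_⟩
  have h2 : (1 - (((‖A‖ + 1)⁻¹ : ℝ) : ℂ) • A).PosSemidef := by
    have h3 := (h1.add Matrix.PosSemidef.one).smul (inv_pos.2 hn).le
    have e : (‖A‖ + 1)⁻¹ • (algebraMap ℝ (Matrix d d ℂ) ‖A‖ - A + 1)
        = 1 - (((‖A‖ + 1)⁻¹ : ℝ) : ℂ) • A := by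
      rw [Algebra.algebraMap_eq_smul_one, Complex.coe_smul, sub_add_eq_add_sub, smul_sub]
      congr 1
      nth_rewrite 2 [← one_smul ℝ (1 : Matrix d d ℂ)]
      rw [← add_smul, smul_smul, inv_mul_cancel₀ hn.ne', one_smul]
    rwa [e] at h3
  exact CStarAlgebra.nonneg_iff_eq_star_mul_self.mp h2.nonneg

lemma exists_channel [DecidableEq d] (W : ι → Matrix d d ℂ)
    (hW : ∀ X, (kraus W X)ᵀ = kraus W X) (z : d) :
    ∃ ε : ℝ, 0 < ε ∧ ∃ Θ : Matrix d d ℂ → Matrix d d ℂ, IsChannel Θ ∧ IsPPT Θ ∧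
      ∀ X, ∃ c : ℂ, Θ X = (ε : ℂ) • kraus W X + c • Matrix.single z z (1 : ℂ) := by
  obtain ⟨ε, hε, B, hB⟩ := exists_eps (∑ i, (W i)ᴴ * W i)
    (posSemidef_sum _ fun i _ => posSemidef_conjTranspose_mul_self _).1
  have key : ∀ X, kraus (Sum.elim (fun i => ((Real.sqrt ε : ℝ) : ℂ) • W i)
      (fun j => Matrix.of fun a b => if a = z then B j b else 0)) X
      = (ε : ℂ) • kraus W X + (Bᴴ * B * X).trace • Matrix.single z z (1 : ℂ) := by
    intro X
    rw [kraus_elim, kraus_smul _ hε.le, kraus_dump]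
  refine ⟨ε, hε, _, ⟨kraus_linear _, kraus_cp _, fun X => ?_⟩, kraus_ppt _ fun X => ?_,
    fun X => ⟨_, key X⟩⟩
  · rw [key, Matrix.trace_add, Matrix.trace_smul, Matrix.trace_smul, trace_kraus, ← hB,
      Matrix.sub_mul, Matrix.trace_sub, Matrix.smul_mul, Matrix.trace_smul]
    simp
  · rw [key, Matrix.transpose_add, Matrix.transpose_smul, Matrix.transpose_smul, hW,
      Matrix.transpose_single]

end general

def j1 (i : Fin 10) : Fin 21 := ⟨i, by omega⟩
def j2 (i : Fin 10) : Fin 21 := ⟨10 + i, by omega⟩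

def embZ (j : Fin 10 → Fin 21) : Matrix (Fin 21) (Fin 10) ℤ :=
  Matrix.of fun r s => if j s = r then 1 else 0

noncomputable def emb (j : Fin 10 → Fin 21) : Matrix (Fin 21) (Fin 10) ℂ := (embZ j).map Int.cast

lemma emb_compress (j j' : Fin 10 → Fin 21) (X : Matrix (Fin 21) (Fin 21) ℂ) :
    (emb j)ᴴ * X * emb j' = X.submatrix j j' := by
  ext s t
  simp [emb, embZ, Matrix.mul_apply, apply_ite star]

lemma emb_mul (j j' : Fin 10 → Fin 21) :
    (emb j)ᴴ * emb j' = Matrix.of fun s t => if j s = j' t then 1 else 0 := by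
  have := emb_compress j j' 1
  rw [Matrix.mul_one] at this
  rw [this]
  ext s t
  simp [Matrix.one_apply]

lemma emb11 : (emb j1)ᴴ * emb j1 = 1 := by
  rw [emb_mul]; ext s t; simp [Matrix.one_apply, j1, Fin.ext_iff]

lemma emb22 : (emb j2)ᴴ * emb j2 = 1 := by
  rw [emb_mul]; ext s t; simp [Matrix.one_apply, j2, Fin.ext_iff]

lemma emb12 : (emb j1)ᴴ * emb j2 = 0 := by
  rw [emb_mul]; ext s t
  have : j1 s ≠ j2 t := by simp only [j1, j2, Ne, Fin.ext_iff]; omega
  simp [this]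

lemma emb21 : (emb j2)ᴴ * emb j1 = 0 := by
  rw [emb_mul]; ext s t
  have : j2 s ≠ j1 t := by simp only [j1, j2, Ne, Fin.ext_iff]; omega
  simp [this]

noncomputable def W0 : (Fin 6 × Fin 6) ⊕ (Fin 6 × Fin 6) → Matrix (Fin 21) (Fin 21) ℂ :=
  Sum.elim (fun p => emb j2 * U p * (emb j1)ᴴ) (fun p => emb j1 * V p * (emb j2)ᴴ)

lemma W0_symm (X : Matrix (Fin 21) (Fin 21) ℂ) : (kraus W0 X)ᵀ = kraus W0 X := by
  rw [W0, kraus_elim, Matrix.transpose_add,
    sandwich_symm (emb j2) (map_int_real _) U U_symm,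
    sandwich_symm (emb j1) (map_int_real _) V V_symm]

lemma W0_sub1 (X : Matrix (Fin 21) (Fin 21) ℂ) :
    (kraus W0 X).submatrix j1 j1 = kraus V (X.submatrix j2 j2) := by
  rw [W0, kraus_elim, kraus_sandwich, kraus_sandwich,
    Matrix.conjTranspose_conjTranspose, Matrix.conjTranspose_conjTranspose, emb_compress,
    emb_compress, ← emb_compress _ _ (_ + _), Matrix.mul_add, Matrix.add_mul]
  simp only [← Matrix.mul_assoc, emb12, emb11, Matrix.zero_mul, Matrix.one_mul, zero_add]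
  rw [Matrix.mul_assoc, emb11, Matrix.mul_one]

lemma W0_sub2 (X : Matrix (Fin 21) (Fin 21) ℂ) :
    (kraus W0 X).submatrix j2 j2 = kraus U (X.submatrix j1 j1) := by
  rw [W0, kraus_elim, kraus_sandwich, kraus_sandwich,
    Matrix.conjTranspose_conjTranspose, Matrix.conjTranspose_conjTranspose, emb_compress,
    emb_compress, ← emb_compress _ _ (_ + _), Matrix.mul_add, Matrix.add_mul]
  simp only [← Matrix.mul_assoc, emb21, emb22, Matrix.zero_mul, Matrix.one_mul, add_zero]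
  rw [Matrix.mul_assoc, emb22, Matrix.mul_one]

lemma single_sub (j : Fin 10 → Fin 21) (hj : ∀ s, j s ≠ 20) (c : ℂ) :
    (c • Matrix.single (20 : Fin 21) (20 : Fin 21) (1 : ℂ)).submatrix j j = 0 := by
  ext s t
  simp [(hj s).symm]

theorem exists_21 : ∃ Θ : Matrix (Fin 21) (Fin 21) ℂ → Matrix (Fin 21) (Fin 21) ℂ,
    IsChannel Θ ∧ IsPPT Θ ∧ ¬ IsEntanglementBreaking (Θ ∘ Θ) := by
  obtain ⟨ε, hε, Θ, h1, h2, h3⟩ := exists_channel W0 W0_symm 20
  refine ⟨Θ, h1, h2, fun h => ?_⟩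
  have hs1 : ∀ X, (Θ X).submatrix j1 j1 = (ε : ℂ) • kraus V (X.submatrix j2 j2) := by
    intro X
    obtain ⟨c, hc⟩ := h3 X
    rw [hc, Matrix.submatrix_add, Pi.add_apply, Pi.add_apply, single_sub j1 (by decide),
      Matrix.submatrix_smul, Pi.smul_apply, Pi.smul_apply, W0_sub1, add_zero]
  have hs2 : ∀ X, (Θ X).submatrix j2 j2 = (ε : ℂ) • kraus U (X.submatrix j1 j1) := by
    intro X
    obtain ⟨c, hc⟩ := h3 X
    rw [hc, Matrix.submatrix_add, Pi.add_apply, Pi.add_apply, single_sub j2 (by decide),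
      Matrix.submatrix_smul, Pi.smul_apply, Pi.smul_apply, W0_sub2, add_zero]
  have hsep := eb_choi_sep h j1 j1
  have e : (Matrix.of fun p q : Fin 10 × Fin 10 =>
      (Θ ∘ Θ) (Matrix.single (j1 p.1) (j1 q.1) 1) (j1 p.2) (j1 q.2))
      = ((ε : ℂ) * ε) • choiMatrix (kraus V ∘ kraus U) := by
    ext p q
    have e1 : (Matrix.single (j1 p.1) (j1 q.1) (1 : ℂ)).submatrix j1 j1
        = Matrix.single p.1 q.1 1 := by
      ext s t
      simp [Matrix.single_apply, j1, Fin.ext_iff]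
    have e2 := congrFun (congrFun (hs1 (Θ (Matrix.single (j1 p.1) (j1 q.1) 1))) p.2) q.2
    rw [hs2, e1, (kraus_linear V).map_smul, smul_smul] at e2
    exact e2
  rw [e] at hsep
  have hε' : (ε : ℂ) * ε ≠ 0 := by
    have : (ε : ℂ) ≠ 0 := by exact_mod_cast hε.ne'
    exact mul_ne_zero this this
  obtain ⟨u, v, hu, hv, w, hw⟩ := sep_product hsep (smul_ne_zero hε' choi_ne)
  rw [Matrix.smul_mulVec, ← Matrix.mulVec_smul] at hw
  rcases choi_no_prod u v ⟨_, hw⟩ with h | h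
  exacts [hu h, hv h]

end Crest.Agent.R345
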