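import Crest.Agent.R345.CheckRun

/-! Soundness of the two-quadric covering check. -/

namespace Crest.Agent.R345

def BB : ℕ := 81129638414606681695789005144064

/-- `k`-th digit in base `BB`. -/
def dig : ℕ → ℕ → ℕ
  | 0, X => X % BB
  | k + 1, X => dig k (X / BB)

lemma BB_pos : 0 < BB := by unfold BB; norm_num

lemma dig_eq (k X : ℕ) : dig k X = X / BB ^ k % BB := by
  induction k generalizing X with
  | zero => simp [dig]
  | succ k ih => rw [dig, ih, Nat.div_div_eq_div_mul, pow_succ']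

lemma dig_lin (a c : ℕ) (k X Y : ℕ) (h : ∀ j, a * dig j X + c * dig j Y < BB) :
    dig k (a * X + c * Y) = a * dig k X + c * dig k Y := by
  induction k generalizing X Y with
  | zero =>
    have h0 := h 0
    simp only [dig] at h0 ⊢
    have e : a * X + c * Y = (a * (X % BB) + c * (Y % BB)) + BB * (a * (X / BB) + c * (Y / BB)) := by
      conv_lhs => rw [← Nat.mod_add_div X BB, ← Nat.mod_add_div Y BB]
      ring
    rw [e, Nat.add_mul_mod_self_left, Nat.mod_eq_of_lt h0]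
  | succ k ih =>
    have h0 := h 0
    simp only [dig] at h0 ⊢
    have e : a * X + c * Y = (a * (X % BB) + c * (Y % BB)) + BB * (a * (X / BB) + c * (Y / BB)) := by
      conv_lhs => rw [← Nat.mod_add_div X BB, ← Nat.mod_add_div Y BB]
      ring
    rw [e, Nat.add_mul_div_left _ _ BB_pos, Nat.div_eq_of_lt h0, zero_add]
    exact ih _ _ (fun j => h (j + 1))

lemma mapDiv_eq (C : List ℕ) : mapDiv C = C.map (· / BB) := by
  induction C with
  | nil => rfl
  | cons X C ih => exact congrArg (List.cons _) ih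

lemma mapProj_eq (a Y : ℕ) (C : List ℕ) :
    mapProj a Y C = C.map (fun X => a * (X / BB) + (401 - X % BB % 401) * Y) := by
  induction C with
  | nil => rfl
  | cons X C ih => exact congrArg (List.cons _) ih

lemma app_eq (A C : List ℕ) : app A C = A ++ C := by
  induction A with
  | nil => rfl
  | cons X A ih => exact congrArg (List.cons _) ih

/-- the state that `br` passes to its continuation. -/
def brD : List ℕ → List ℕ → Option (List ℕ)
  | [], pre => some (pre.map (· / BB))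
  | Y :: Cs, pre =>
      if Y % BB % 401 = 0 then brD Cs (Y :: pre)
      else if pre ++ Cs = [] then none
      else some ((pre ++ Cs).map
        (fun X => Y % BB % 401 * (X / BB) + (401 - X % BB % 401) * (Y / BB)))

lemma br_cons (k : List ℕ → Bool) (Y : ℕ) (Cs pre : List ℕ) :
    br k (Y :: Cs) pre = Bool.rec (motive := fun _ => Bool)
      (fin k (Y % BB % 401) (Y / BB) (app pre Cs)) (br k Cs (Y :: pre))
      (Nat.beq (Y % BB % 401) 0) := rfl

lemma br_some (k : List ℕ → Bool) (C pre C' : List ℕ) (h : br k C pre = true)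
    (hD : brD C pre = some C') : k C' = true := by
  induction C generalizing pre with
  | nil =>
    have : br k [] pre = k (mapDiv pre) := rfl
    rw [this, mapDiv_eq] at h
    simp only [brD, Option.some.injEq] at hD
    rwa [hD] at h
  | cons Y Cs ih =>
    rw [br_cons] at h
    rw [brD] at hD
    by_cases h0 : Y % BB % 401 = 0
    · rw [if_pos h0] at hD
      rw [h0] at h
      exact ih _ h hD
    · rw [if_neg h0] at hD
      have hb : Nat.beq (Y % BB % 401) 0 = false := by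
        rcases hY : Y % BB % 401 with _ | n
        · exact absurd hY h0
        · rfl
      rw [hb, app_eq] at h
      rcases hL : pre ++ Cs with _ | ⟨X, L⟩
      · rw [if_pos hL] at hD
        exact absurd hD (by simp)
      · rw [if_neg (by rw [hL]; simp), hL] at hD
        rw [hL] at h
        have : fin k (Y % BB % 401) (Y / BB) (X :: L)
          = k (mapProj (Y % BB % 401) (Y / BB) (X :: L)) := rfl
        change fin k (Y % BB % 401) (Y / BB) (X :: L) = true at h
        rw [this, mapProj_eq] at h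
        simp only [Option.some.injEq] at hD
        rwa [hD] at h

lemma goCut_succ (leaf : List ℕ → List ℕ → Bool) (d : ℕ) (C₁ C₂ : List ℕ)
    (h : goCut leaf (d + 1) C₁ C₂ = true) :
    br (fun C => goCut leaf d C (mapDiv C₂)) C₁ [] = true ∧
      br (fun C => goCut leaf d (mapDiv C₁) C) C₂ [] = true := by
  have e : goCut leaf (d + 1) C₁ C₂ = Bool.rec (motive := fun _ => Bool) false
      (br (fun C => goCut leaf d (mapDiv C₁) C) C₂ [])
      (br (fun C => goCut leaf d C (mapDiv C₂)) C₁ []) := rfl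
  rw [e] at h
  rcases hb : br (fun C => goCut leaf d C (mapDiv C₂)) C₁ [] with _ | _
  · rw [hb] at h; exact absurd h (by simp)
  · rw [hb] at h; exact ⟨rfl, h⟩

section sem

variable {F : Type*} [Field F]

def val (Z : List (F × ℕ)) (k : ℕ) : F := (Z.map fun z => z.1 * (dig k z.2 : F)).sum

def NZ (Z : List (F × ℕ)) : Prop := ∃ z ∈ Z, z.1 ≠ 0

def Inv (C : List ℕ) : Prop := ∀ X ∈ C, ∀ k, dig k X * 802 ^ C.length < BB

lemma val_append (A Z : List (F × ℕ)) (k : ℕ) : val (A ++ Z) k = val A k + val Z k := by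
  simp [val]

lemma val_cons (z : F × ℕ) (Z : List (F × ℕ)) (k : ℕ) :
    val (z :: Z) k = z.1 * (dig k z.2 : F) + val Z k := by
  simp [val]

lemma val_eq_zero (Z : List (F × ℕ)) (h : ¬ NZ Z) (k : ℕ) : val Z k = 0 := by
  induction Z with
  | nil => rfl
  | cons z Z ih =>
    have h1 : z.1 = 0 := by
      by_contra hz
      exact h ⟨z, by simp, hz⟩
    rw [val_cons, h1, ih (fun ⟨w, hw, hw'⟩ => h ⟨w, by simp [hw], hw'⟩)]
    simp

/-- skipping a point. -/
def skip (Z : List (F × ℕ)) : List (F × ℕ) := Z.map fun z => (z.1, z.2 / BB)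

omit [Field F] in
lemma skip_snd (Z : List (F × ℕ)) : (skip Z).map Prod.snd = (Z.map Prod.snd).map (· / BB) := by
  simp [skip]

lemma val_skip (Z : List (F × ℕ)) (k : ℕ) : val (skip Z) k = val Z (k + 1) := by
  simp [val, skip, dig, Function.comp_def]

lemma NZ_skip (Z : List (F × ℕ)) (h : NZ Z) : NZ (skip Z) := by
  obtain ⟨z, hz, hz'⟩ := h
  exact ⟨(z.1, z.2 / BB), List.mem_map.2 ⟨z, hz, rfl⟩, hz'⟩

lemma Inv_div (C : List ℕ) (h : Inv C) : Inv (C.map (· / BB)) := by
  intro X hX k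
  obtain ⟨Y, hY, rfl⟩ := List.mem_map.1 hX
  rw [List.length_map]
  exact h Y hY (k + 1)

lemma lin_bound {a c x y n : ℕ} (ha : a ≤ 401) (hc : c ≤ 401) (hx : x * 802 ^ (n + 1) < BB)
    (hy : y * 802 ^ (n + 1) < BB) : (a * x + c * y) * 802 ^ n < BB := by
  have h1 : a * x ≤ 401 * x := Nat.mul_le_mul_right _ ha
  have h2 : c * y ≤ 401 * y := Nat.mul_le_mul_right _ hc
  have h3 : (a * x + c * y) * 802 ^ n ≤ (401 * x + 401 * y) * 802 ^ n :=
    Nat.mul_le_mul_right _ (by omega)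
  rw [pow_succ] at hx hy
  have e1 : (401 * x + 401 * y) * 802 ^ n = 401 * (x * 802 ^ n) + 401 * (y * 802 ^ n) := by ring
  have e2 : x * (802 ^ n * 802) = 802 * (x * 802 ^ n) := by ring
  have e3 : y * (802 ^ n * 802) = 802 * (y * 802 ^ n) := by ring
  omega

variable [CharP F 401]

lemma cast_mod (x : ℕ) : ((x % 401 : ℕ) : F) = (x : F) := by
  conv_rhs => rw [← Nat.mod_add_div x 401]
  have : ((401 : ℕ) : F) = 0 := CharP.cast_eq_zero F 401
  rw [Nat.cast_add, Nat.cast_mul, this]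
  simp

lemma cast_neg (x : ℕ) : ((401 - x % 401 : ℕ) : F) = -(x : F) := by
  have h : x % 401 ≤ 401 := (Nat.mod_lt x (by norm_num)).le
  have : ((401 : ℕ) : F) = 0 := CharP.cast_eq_zero F 401
  rw [Nat.cast_sub h, this, cast_mod]
  simp

lemma val_proj (a Y : ℕ) (R : List (F × ℕ))
    (h : ∀ z ∈ R, ∀ j, a * dig (j + 1) z.2 + (401 - z.2 % BB % 401) * dig (j + 1) Y < BB) (k : ℕ) :
    val (R.map fun z => (z.1, a * (z.2 / BB) + (401 - z.2 % BB % 401) * (Y / BB))) k
      = a * val R (k + 1) - (dig (k + 1) Y : F) * val R 0 := by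
  induction R with
  | nil => simp [val]
  | cons z R ih =>
    rw [List.map_cons, val_cons, val_cons, val_cons, ih (fun w hw => h w (by simp [hw]))]
    dsimp only
    rw [dig_lin _ _ _ _ _ (h z (by simp))]
    push_cast [cast_neg]
    simp only [dig]
    ring

lemma brD_sound (Z Zp : List (F × ℕ)) (hI : Inv ((Zp ++ Z).map Prod.snd)) (hN : NZ (Zp ++ Z))
    (h0 : val (Zp ++ Z) 0 = 0) :
    ∃ Z' : List (F × ℕ), brD (Z.map Prod.snd) (Zp.map Prod.snd) = some (Z'.map Prod.snd) ∧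
      Inv (Z'.map Prod.snd) ∧ NZ Z' ∧ ∀ k, val Z' k ≠ 0 → val (Zp ++ Z) (k + 1) ≠ 0 := by
  induction Z generalizing Zp with
  | nil =>
    rw [List.append_nil] at hI hN h0 ⊢
    refine ⟨skip Zp, ?_, ?_, NZ_skip _ hN, fun k hk => by rwa [val_skip] at hk⟩
    · rw [skip_snd]; rfl
    · rw [skip_snd]; exact Inv_div _ hI
  | cons z Zs ih =>
    obtain ⟨q, Y⟩ := z
    have hv : ∀ k, val (Zp ++ (q, Y) :: Zs) k = q * (dig k Y : F) + val (Zp ++ Zs) k := by
      intro k
      rw [val_append, val_cons, val_append]; ring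
    have hlen : ((Zp ++ (q, Y) :: Zs).map Prod.snd).length = (Zp ++ Zs).length + 1 := by
      simp; omega
    rw [List.map_cons, brD]
    by_cases hY : Y % BB % 401 = 0
    · rw [if_pos hY]
      have hv' : ∀ k, val (((q, Y) :: Zp) ++ Zs) k = val (Zp ++ (q, Y) :: Zs) k := by
        intro k
        rw [hv, List.cons_append, val_cons]
      obtain ⟨Z', h1, h2, h3, h4⟩ := ih ((q, Y) :: Zp) (by
          intro X hX k
          have := hI X (by simp at hX ⊢; tauto) k
          rw [hlen] at this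
          simpa using this)
        (by
          obtain ⟨w, hw, hw'⟩ := hN
          exact ⟨w, by simp at hw ⊢; tauto, hw'⟩)
        (by rw [hv', h0])
      exact ⟨Z', h1, h2, h3, fun k hk => by rw [← hv']; exact h4 k hk⟩
    · rw [if_neg hY]
      have ha : (dig 0 Y : F) ≠ 0 := by
        intro hz
        rw [CharP.cast_eq_zero_iff F 401] at hz
        exact hY (Nat.mod_eq_zero_of_dvd hz)
      have hNR : NZ (Zp ++ Zs) := by
        by_contra hn
        have h00 := val_eq_zero _ hn 0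
        rw [hv, h00, add_zero] at h0
        have hq : q = 0 := (mul_eq_zero.1 h0).resolve_right ha
        obtain ⟨w, hw, hw'⟩ := hN
        rcases List.mem_append.1 hw with hw | hw
        · exact hn ⟨w, List.mem_append_left _ hw, hw'⟩
        · rcases List.mem_cons.1 hw with rfl | hw
          · exact hw' hq
          · exact hn ⟨w, List.mem_append_right _ hw, hw'⟩
      have hne : Zp.map Prod.snd ++ Zs.map Prod.snd ≠ [] := by
        obtain ⟨w, hw, -⟩ := hNR
        rw [← List.map_append]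
        exact List.ne_nil_of_mem (List.mem_map.2 ⟨w, hw, rfl⟩)
      rw [if_neg hne]
      have hbd : ∀ z ∈ Zp ++ Zs, ∀ j,
          (Y % BB % 401 * dig (j + 1) z.2 + (401 - z.2 % BB % 401) * dig (j + 1) Y)
            * 802 ^ (Zp ++ Zs).length < BB := by
        intro z hz j
        refine lin_bound (Nat.mod_lt _ (by norm_num)).le (Nat.sub_le _ _) ?_ ?_
        · rw [← hlen]
          refine hI _ (List.mem_map.2 ⟨z, ?_, rfl⟩) _
          simp at hz ⊢; tauto
        · rw [← hlen]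
          exact hI _ (List.mem_map.2 ⟨(q, Y), by simp, rfl⟩) _
      have hbd' : ∀ z ∈ Zp ++ Zs, ∀ j,
          Y % BB % 401 * dig (j + 1) z.2 + (401 - z.2 % BB % 401) * dig (j + 1) Y < BB := by
        intro z hz j
        exact lt_of_le_of_lt (Nat.le_mul_of_pos_right _ (by positivity)) (hbd z hz j)
      refine ⟨(Zp ++ Zs).map fun z =>
        (z.1, Y % BB % 401 * (z.2 / BB) + (401 - z.2 % BB % 401) * (Y / BB)), ?_, ?_, ?_, ?_⟩
      · rw [← List.map_append, List.map_map, List.map_map]; rfl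
      · intro X hX k
        rw [List.map_map] at hX
        obtain ⟨z, hz, rfl⟩ := List.mem_map.1 hX
        simp only [Function.comp, List.length_map]
        rw [dig_lin _ _ _ _ _ (hbd' z hz)]
        exact hbd z hz k
      · obtain ⟨w, hw, hw'⟩ := hNR
        exact ⟨_, List.mem_map.2 ⟨w, hw, rfl⟩, hw'⟩
      · intro k hk hk'
        apply hk
        rw [val_proj _ _ _ hbd', cast_mod]
        rw [hv] at h0 hk'
        have e1 : val (Zp ++ Zs) 0 = -(q * (dig 0 Y : F)) := by linear_combination h0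
        have e2 : val (Zp ++ Zs) (k + 1) = -(q * (dig (k + 1) Y : F)) := by linear_combination hk'
        rw [e1, e2]
        simp only [dig]
        ring

variable (F) in
def Good (f : ℕ) (C₁ C₂ : List ℕ) : Prop :=
  ∀ Z₁ Z₂ : List (F × ℕ), Z₁.map Prod.snd = C₁ → Z₂.map Prod.snd = C₂ → NZ Z₁ → NZ Z₂ →
    ∃ k < f, val Z₁ k ≠ 0 ∧ val Z₂ k ≠ 0

lemma goCut_sound (m f : ℕ) (leaf : ℕ → List ℕ → List ℕ → Bool)
    (hleaf : ∀ C₁ C₂, Inv C₁ → Inv C₂ → (∀ i < m, leaf i C₁ C₂ = true) → Good F f C₁ C₂)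
    (d : ℕ) (C₁ C₂ : List ℕ) (h₁ : Inv C₁) (h₂ : Inv C₂)
    (h : ∀ i < m, goCut (leaf i) d C₁ C₂ = true) : Good F (f + d) C₁ C₂ := by
  induction d generalizing C₁ C₂ with
  | zero => exact hleaf C₁ C₂ h₁ h₂ h
  | succ d ih =>
    rintro Z₁ Z₂ rfl rfl hN₁ hN₂
    by_cases hv₁ : val Z₁ 0 = 0
    · obtain ⟨Z', e1, e2, e3, e4⟩ := brD_sound Z₁ [] h₁ hN₁ hv₁
      obtain ⟨k, hk, hk₁, hk₂⟩ := ih (Z'.map Prod.snd) (mapDiv (Z₂.map Prod.snd)) e2
        (by rw [mapDiv_eq]; exact Inv_div _ h₂)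
        (fun i hi => br_some (fun C => goCut (leaf i) d C (mapDiv (Z₂.map Prod.snd))) _ _ _
          (goCut_succ _ _ _ _ (h i hi)).1 e1)
        Z' (skip Z₂) rfl (by rw [skip_snd, mapDiv_eq]) e3 (NZ_skip _ hN₂)
      exact ⟨k + 1, by omega, e4 k hk₁, by rwa [val_skip] at hk₂⟩
    by_cases hv₂ : val Z₂ 0 = 0
    · obtain ⟨Z', e1, e2, e3, e4⟩ := brD_sound Z₂ [] h₂ hN₂ hv₂
      obtain ⟨k, hk, hk₁, hk₂⟩ := ih (mapDiv (Z₁.map Prod.snd)) (Z'.map Prod.snd)
        (by rw [mapDiv_eq]; exact Inv_div _ h₁) e2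
        (fun i hi => br_some _ _ _ _ (goCut_succ _ _ _ _ (h i hi)).2 e1)
        (skip Z₁) Z' (by rw [skip_snd, mapDiv_eq]) rfl (NZ_skip _ hN₁) e3
      exact ⟨k + 1, by omega, by rwa [val_skip] at hk₁, e4 k hk₂⟩
    · exact ⟨0, by omega, hv₁, hv₂⟩

lemma go_sound (d : ℕ) (C₁ C₂ : List ℕ) (h₁ : Inv C₁) (h₂ : Inv C₂)
    (h : goCut (fun _ _ => false) d C₁ C₂ = true) : Good F d C₁ C₂ := by
  have := goCut_sound (F := F) 1 0 (fun _ _ _ => false)
    (fun C₁ C₂ _ _ hh => absurd (hh 0 one_pos) (by simp)) d C₁ C₂ h₁ h₂ (fun _ _ => h)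
  rwa [zero_add] at this

lemma leafSel_sound (C₁ C₂ : List ℕ) (h₁ : Inv C₁) (h₂ : Inv C₂)
    (h : ∀ i < 11, leafSel 11 i 10 C₁ C₂ = true) : Good F 10 C₁ C₂ := by
  apply go_sound _ _ _ h₁ h₂
  have := h (Nat.mod (Nat.add (List.rec 0 (fun X _ _ => X) C₁) (List.rec 0 (fun X _ _ => X) C₂)) 11)
    (Nat.mod_lt _ (by norm_num))
  unfold leafSel at this
  rwa [Nat.beq_refl] at this

lemma cols_small : ∀ X ∈ cols, X < BB ^ 20 ∧ ∀ k < 20, dig k X ≤ 400 := by
  decide +kernel

lemma Inv_cols : Inv cols := by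
  intro X hX k
  obtain ⟨h1, h2⟩ := cols_small X hX
  have hl : cols.length = 10 := rfl
  have : dig k X ≤ 400 := by
    by_cases hk : k < 20
    · exact h2 k hk
    · rw [dig_eq, Nat.div_eq_of_lt (lt_of_lt_of_le h1 (Nat.pow_le_pow_right BB_pos (by omega)))]
      simp
  rw [hl]
  calc dig k X * 802 ^ 10 ≤ 400 * 802 ^ 10 := Nat.mul_le_mul_right _ this
    _ < BB := by unfold BB; norm_num

lemma cover_aux (Z₁ Z₂ : List (F × ℕ)) (e₁ : Z₁.map Prod.snd = cols) (e₂ : Z₂.map Prod.snd = cols)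
    (hN₁ : NZ Z₁) (hN₂ : NZ Z₂) (hv : val Z₁ 0 = 0) :
    ∃ k < 20, val Z₁ k ≠ 0 ∧ val Z₂ k ≠ 0 := by
  obtain ⟨Z', e1, e2, e3, e4⟩ := brD_sound Z₁ [] (by rw [List.nil_append, e₁]; exact Inv_cols) hN₁ hv
  rw [e₁] at e1
  obtain ⟨k, hk, hk₁, hk₂⟩ := goCut_sound (F := F) 11 10 (fun i => leafSel 11 i 10) leafSel_sound 9
    (Z'.map Prod.snd) (mapDiv cols) e2 (by rw [mapDiv_eq]; exact Inv_div _ Inv_cols)
    (fun i hi => br_some (fun C => goCut (leafSel 11 i 10) 9 C (mapDiv cols)) cols [] _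
      (run_all i hi) e1)
    Z' (skip Z₂) rfl (by rw [skip_snd, mapDiv_eq, e₂]) e3 (NZ_skip _ hN₂)
  exact ⟨k + 1, by omega, e4 k hk₁, by rwa [val_skip] at hk₂⟩

theorem good_cols : Good F 20 cols cols := by
  intro Z₁ Z₂ e₁ e₂ hN₁ hN₂
  by_cases hv₁ : val Z₁ 0 = 0
  · exact cover_aux Z₁ Z₂ e₁ e₂ hN₁ hN₂ hv₁
  by_cases hv₂ : val Z₂ 0 = 0
  · obtain ⟨k, hk, h1, h2⟩ := cover_aux Z₂ Z₁ e₂ e₁ hN₂ hN₁ hv₂
    exact ⟨k, hk, h2, h1⟩
  · exact ⟨0, by omega, hv₁, hv₂⟩

/-- The packed table: `W k s` is the value of the `s`-th quadratic monomial at the `k`-th point,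
modulo 401. -/
def W (k : ℕ) (s : Fin 10) : ℕ := dig k (cols.getD s 0)

theorem cover (u v : Fin 10 → F) (hu : u ≠ 0) (hv : v ≠ 0) :
    ∃ k < 20, ∑ s, u s * (W k s : F) ≠ 0 ∧ ∑ s, v s * (W k s : F) ≠ 0 := by
  have key : ∀ u : Fin 10 → F, u ≠ 0 → ∃ Z : List (F × ℕ), Z.map Prod.snd = cols ∧ NZ Z ∧
      ∀ k, val Z k = ∑ s, u s * (W k s : F) := by
    intro u hu
    refine ⟨List.ofFn fun s => (u s, cols.getD s 0), ?_, ?_, ?_⟩
    · rw [List.map_ofFn]; rfl
    · obtain ⟨s, hs⟩ := Function.ne_iff.1 hu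
      exact ⟨(u s, cols.getD s 0), List.mem_ofFn.2 ⟨s, rfl⟩, hs⟩
    · intro k
      rw [val, List.map_ofFn, List.sum_ofFn]
      rfl
  obtain ⟨Z₁, a1, a2, a3⟩ := key u hu
  obtain ⟨Z₂, b1, b2, b3⟩ := key v hv
  obtain ⟨k, hk, h1, h2⟩ := good_cols Z₁ Z₂ a1 b1 a2 b2
  exact ⟨k, hk, by rwa [← a3], by rwa [← b3]⟩

end sem

end Crest.Agent.R345
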