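import Crest.Agent.R345.CheckDef

/-! The kernel computations of the two-quadric covering check. -/

namespace Crest.Agent.R345

theorem run0 : br (fun C => goCut (leafSel 11 0 10) 9 C (mapDiv cols)) cols [] = true := by
  decide +kernel

theorem run1 : br (fun C => goCut (leafSel 11 1 10) 9 C (mapDiv cols)) cols [] = true := by
  decide +kernel

theorem run2 : br (fun C => goCut (leafSel 11 2 10) 9 C (mapDiv cols)) cols [] = true := by
  decide +kernel

theorem run3 : br (fun C => goCut (leafSel 11 3 10) 9 C (mapDiv cols)) cols [] = true := by
  decide +kernel

theorem run4 : br (fun C => goCut (leafSel 11 4 10) 9 C (mapDiv cols)) cols [] = true := by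
  decide +kernel

theorem run5 : br (fun C => goCut (leafSel 11 5 10) 9 C (mapDiv cols)) cols [] = true := by
  decide +kernel

theorem run6 : br (fun C => goCut (leafSel 11 6 10) 9 C (mapDiv cols)) cols [] = true := by
  decide +kernel

theorem run7 : br (fun C => goCut (leafSel 11 7 10) 9 C (mapDiv cols)) cols [] = true := by
  decide +kernel

theorem run8 : br (fun C => goCut (leafSel 11 8 10) 9 C (mapDiv cols)) cols [] = true := by
  decide +kernel

theorem run9 : br (fun C => goCut (leafSel 11 9 10) 9 C (mapDiv cols)) cols [] = true := by
  decide +kernel

theorem run10 : br (fun C => goCut (leafSel 11 10 10) 9 C (mapDiv cols)) cols [] = true := by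
  decide +kernel

theorem run_all : ∀ i < 11,
    br (fun C => goCut (leafSel 11 i 10) 9 C (mapDiv cols)) cols [] = true := by
  intro i hi
  interval_cases i
  exacts [run0, run1, run2, run3, run4, run5, run6, run7, run8, run9, run10]

end Crest.Agent.R345
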