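import Crest.Prelude.Def_Entanglement

/-! Generalities on maps given by Kraus operators, Choi matrices and separability. -/

namespace Crest.Agent.R345

open Matrix Crest.Quantum
open scoped ComplexOrder Kronecker

variable {ι κ d e g : Type*} [Fintype ι] [Fintype κ] [Fintype d] [Fintype e] [Fintype g]

noncomputable def kraus (U : ι → Matrix e d ℂ) (X : Matrix d d ℂ) : Matrix e e ℂ :=
  ∑ i, U i * X * (U i)ᴴ

omit [Fintype e] in
lemma kraus_linear (U : ι → Matrix e d ℂ) : IsLinearMap ℂ (kraus U) where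
  map_add X Y := by simp [kraus, Matrix.mul_add, Matrix.add_mul, Finset.sum_add_distrib]
  map_smul c X := by simp [kraus, Finset.smul_sum]

omit [Fintype e] in
lemma kraus_apply (U : ι → Matrix e d ℂ) (X : Matrix d d ℂ) (p q : e) :
    kraus U X p q = ∑ a, ∑ a', (∑ i, U i p a * star (U i q a')) * X a a' := by
  simp only [kraus, Matrix.sum_apply, Matrix.mul_apply, Matrix.conjTranspose_apply,
    Finset.sum_mul]
  rw [Finset.sum_comm]
  conv_rhs => rw [Finset.sum_comm]
  refine Finset.sum_congr rfl fun a' _ => ?_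
  rw [Finset.sum_comm]
  refine Finset.sum_congr rfl fun a _ => Finset.sum_congr rfl fun i _ => by ring

omit [Fintype e] in
lemma blockwise_conj {k : Type*} [Fintype k] [DecidableEq k] (U : Matrix e d ℂ)
    (M : Matrix (k × d) (k × d) ℂ) (p q : k × e) :
    (U * block M p.1 q.1 * Uᴴ) p.2 q.2
      = (((1 : Matrix k k ℂ) ⊗ₖ U) * M * ((1 : Matrix k k ℂ) ⊗ₖ U)ᴴ) p q := by
  obtain ⟨s, x⟩ := p
  obtain ⟨t, y⟩ := q
  simp [Matrix.mul_apply, block, Fintype.sum_prod_type, Matrix.one_apply, apply_ite star,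
    Finset.sum_mul]

lemma kraus_cp [DecidableEq d] [DecidableEq e] (U : ι → Matrix e d ℂ) :
    IsCompletelyPositive (kraus U) := by
  intro k M hM
  have : blockwise (k := Fin k) (kraus U) M = ∑ i,
      ((1 : Matrix (Fin k) (Fin k) ℂ) ⊗ₖ U i) * M * ((1 : Matrix (Fin k) (Fin k) ℂ) ⊗ₖ U i)ᴴ := by
    ext p q
    simp only [blockwise, kraus, Matrix.of_apply, Matrix.sum_apply, blockwise_conj]
  rw [this]
  exact posSemidef_sum _ fun i _ => hM.mul_mul_conjTranspose_same _

lemma kraus_ppt [DecidableEq d] [DecidableEq e] (U : ι → Matrix e d ℂ)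
    (h : ∀ X, (kraus U X)ᵀ = kraus U X) : IsPPT (kraus U) := by
  refine ⟨kraus_cp U, ?_⟩
  have : (fun M => (kraus U M)ᵀ) = kraus U := funext h
  rw [this]
  exact kraus_cp U

omit [Fintype g] in
lemma kraus_comp (V : κ → Matrix g e ℂ) (U : ι → Matrix e d ℂ) :
    kraus V ∘ kraus U = kraus fun p : κ × ι => V p.1 * U p.2 := by
  funext X
  simp [kraus, Fintype.sum_prod_type, Matrix.mul_sum, Matrix.sum_mul, Matrix.mul_assoc]

/-- coefficient-level symmetry of a Kraus family. -/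
def SymK (L : ι → Matrix e d ℂ) : Prop :=
  ∀ b a b' a', ∑ i, L i b a * star (L i b' a') = ∑ i, L i b' a * star (L i b a')

omit [Fintype e] in
lemma SymK.transpose_eq {L : ι → Matrix e d ℂ} (h : SymK L) (X : Matrix d d ℂ) :
    (kraus L X)ᵀ = kraus L X := by
  ext p q
  rw [Matrix.transpose_apply, kraus_apply, kraus_apply]
  simp only [h q]

omit [Fintype d] [Fintype e] in
lemma SymK.kron {L : ι → Matrix e d ℂ} (h : SymK L) :
    SymK fun p : ι × ι => L p.1 ⊗ₖ L p.2 := by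
  rintro ⟨b1, b2⟩ ⟨a1, a2⟩ ⟨b1', b2'⟩ ⟨a1', a2'⟩
  have key : ∀ b1 b2 b1' b2', ∑ p : ι × ι, (L p.1 ⊗ₖ L p.2) (b1, b2) (a1, a2)
      * star ((L p.1 ⊗ₖ L p.2) (b1', b2') (a1', a2'))
      = (∑ i, L i b1 a1 * star (L i b1' a1')) * (∑ i, L i b2 a2 * star (L i b2' a2')) := by
    intro b1 b2 b1' b2'
    rw [Finset.sum_mul_sum, Fintype.sum_prod_type]
    refine Finset.sum_congr rfl fun i _ => Finset.sum_congr rfl fun j _ => ?_
    simp only [kroneckerMap_apply, star_mul']
    ring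
  rw [key, key, h b1, h b2]

omit [Fintype g] in
lemma kraus_sandwich {h : Type*} [Fintype h] (P : Matrix g e ℂ) (L : ι → Matrix e d ℂ)
    (Q : Matrix d h ℂ) (X : Matrix h h ℂ) :
    kraus (fun i => P * L i * Q) X = P * kraus L (Q * X * Qᴴ) * Pᴴ := by
  simp [kraus, Matrix.mul_sum, Matrix.sum_mul, Matrix.mul_assoc]

omit [Fintype g] in
lemma sandwich_symm {h : Type*} [Fintype h] (P : Matrix g e ℂ) (hP : Pᴴ = Pᵀ)
    (L : ι → Matrix e d ℂ) (hL : ∀ X, (kraus L X)ᵀ = kraus L X)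
    (Q : Matrix d h ℂ) (X : Matrix h h ℂ) :
    (kraus (fun i => P * L i * Q) X)ᵀ = kraus (fun i => P * L i * Q) X := by
  rw [kraus_sandwich, hP, Matrix.transpose_mul, Matrix.transpose_mul, Matrix.transpose_transpose,
    hL, Matrix.mul_assoc P]

omit [Fintype e] in
lemma choi_kraus [DecidableEq d] (U : ι → Matrix e d ℂ) (p q : d × e) :
    choiMatrix (kraus U) p q = ∑ i, U i p.2 p.1 * star (U i q.2 q.1) := by
  simp only [choiMatrix, Matrix.of_apply, kraus_apply, Matrix.single_apply]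
  rw [Finset.sum_eq_single p.1, Finset.sum_eq_single q.1]
  · simp
  · intro b _ hb; simp [Ne.symm hb]
  · simp
  · intro b _ hb; simp [Ne.symm hb]
  · simp

lemma choi_kraus_mulVec [DecidableEq d] (U : ι → Matrix e d ℂ) (w : d × e → ℂ) :
    ∃ c : ι → ℂ, ∀ p, (choiMatrix (kraus U) *ᵥ w) p = ∑ i, c i * U i p.2 p.1 := by
  refine ⟨fun i => ∑ q : d × e, star (U i q.2 q.1) * w q, fun p => ?_⟩
  simp only [Matrix.mulVec, dotProduct, choi_kraus, Finset.sum_mul]
  rw [Finset.sum_comm]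
  refine Finset.sum_congr rfl fun i _ => Finset.sum_congr rfl fun q _ => by ring

omit [Fintype e] in
lemma eq_zero_of_choi [DecidableEq d] (U : ι → Matrix e d ℂ) (h : choiMatrix (kraus U) = 0)
    (i : ι) : U i = 0 := by
  ext x a
  have := choi_kraus U (a, x) (a, x)
  rw [h, Matrix.zero_apply, eq_comm, Finset.sum_eq_zero_iff_of_nonneg
    (fun i _ => mul_star_self_nonneg _)] at this
  simpa using this i (Finset.mem_univ _)

lemma range_mono [DecidableEq d] {N R : Matrix d d ℂ} (hN : N.PosSemidef) (hR : R.PosSemidef)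
    (x : d → ℂ) : ∃ w, (N + R) *ᵥ w = N *ᵥ x := by
  have hker : LinearMap.ker (toEuclideanLin (N + R)) ≤ LinearMap.ker (toEuclideanLin N) := by
    intro z hz
    rw [LinearMap.mem_ker] at hz ⊢
    have hz' : (N + R) *ᵥ z.ofLp = 0 := congrArg WithLp.ofLp hz
    have h1 : star z.ofLp ⬝ᵥ N *ᵥ z.ofLp + star z.ofLp ⬝ᵥ R *ᵥ z.ofLp = 0 := by
      rw [← dotProduct_add, ← Matrix.add_mulVec, hz', dotProduct_zero]
    have h2 := (add_eq_zero_iff_of_nonneg (hN.dotProduct_mulVec_nonneg _)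
      (hR.dotProduct_mulVec_nonneg _)).1 h1
    have h3 := (hN.dotProduct_mulVec_zero_iff _).1 h2.1
    exact congrArg (WithLp.toLp 2) h3
  rw [← (isSymmetric_toEuclideanLin_iff.2 (hN.add hR).1).orthogonal_range,
    ← (isSymmetric_toEuclideanLin_iff.2 hN.1).orthogonal_range,
    Submodule.orthogonal_le_orthogonal_iff] at hker
  obtain ⟨w, hw⟩ := hker (LinearMap.mem_range_self _ (WithLp.toLp 2 x))
  exact ⟨w.ofLp, congrArg WithLp.ofLp hw⟩

omit [Fintype ι] in
lemma exists_mulVec_ne_zero [DecidableEq d] {A : Matrix d d ℂ} (hA : A ≠ 0) :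
    ∃ x, A *ᵥ x ≠ 0 := by
  by_contra h
  push Not at h
  apply hA
  ext i j
  have := congrFun (h (Pi.single j 1)) i
  simpa using this

lemma sep_product [DecidableEq d] [DecidableEq e] {M : Matrix (d × e) (d × e) ℂ}
    (hM : IsSeparable M) (h0 : M ≠ 0) :
    ∃ (u : d → ℂ) (v : e → ℂ), u ≠ 0 ∧ v ≠ 0 ∧ ∃ w, M *ᵥ w = fun p => u p.1 * v p.2 := by
  obtain ⟨r, A, B, hA, hB, rfl⟩ := hM
  obtain ⟨i, -, hi⟩ := Finset.exists_ne_zero_of_sum_ne_zero h0
  have hAi : A i ≠ 0 := fun h => hi (by rw [h, Matrix.zero_kronecker])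
  have hBi : B i ≠ 0 := fun h => hi (by rw [h, Matrix.kronecker_zero])
  obtain ⟨x, hx⟩ := exists_mulVec_ne_zero hAi
  obtain ⟨y, hy⟩ := exists_mulVec_ne_zero hBi
  refine ⟨_, _, hx, hy, ?_⟩
  rw [← Finset.add_sum_erase _ _ (Finset.mem_univ i)]
  obtain ⟨w, hw⟩ := range_mono ((hA i).kronecker (hB i))
    (posSemidef_sum (Finset.univ.erase i) fun j _ => (hA j).kronecker (hB j))
    (fun p => x p.1 * y p.2)
  refine ⟨w, hw.trans ?_⟩
  funext p
  simp only [Matrix.mulVec, dotProduct, Fintype.sum_prod_type, kroneckerMap_apply,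
    Finset.sum_mul_sum]
  refine Finset.sum_congr rfl fun a _ => Finset.sum_congr rfl fun b _ => by ring

omit [Fintype e] [Fintype g] in
/-- An entanglement breaking map has a separable compressed Choi matrix. -/
lemma eb_choi_sep [DecidableEq d] [DecidableEq e] [DecidableEq g] {n : ℕ}
    {Φ : Matrix d d ℂ → Matrix e e ℂ} (hΦ : IsEntanglementBreaking Φ) (j : Fin n → d) (f : g → e) :
    IsSeparable (Matrix.of fun p q : Fin n × g =>
      Φ (Matrix.single (j p.1) (j q.1) 1) (f p.2) (f q.2)) := by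
  obtain ⟨r, A, B, hA, hB, h⟩ := hΦ n _
    (posSemidef_vecMulVec_self_star fun p : Fin n × d => if j p.1 = p.2 then (1 : ℂ) else 0)
  refine ⟨r, A, fun i => (B i).submatrix f f, hA, fun i => (hB i).submatrix f, ?_⟩
  ext p q
  have := congrFun (congrFun h (p.1, f p.2)) (q.1, f q.2)
  simp only [blockwise, Matrix.of_apply, Matrix.sum_apply, kroneckerMap_apply] at this
  simp only [Matrix.of_apply, Matrix.sum_apply, kroneckerMap_apply, Matrix.submatrix_apply]
  rw [← this]
  congr 1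
  ext a b
  simp only [block, Matrix.of_apply, Matrix.vecMulVec_apply, Matrix.single_apply, Pi.star_apply]
  by_cases h1 : j p.1 = a <;> by_cases h2 : j q.1 = b <;> simp [h1, h2]

end Crest.Agent.R345
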