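import Crest.Agent.R345.Cert
import Crest.Agent.R345.Kraus

/-! The two PPT maps `S²ℂ⁴ → Λ²ℂ⁴ → S²ℂ⁴` (padded to `10 × 10`). -/

namespace Crest.Agent.R345

open Matrix Crest.Quantum
open scoped ComplexOrder Kronecker

noncomputable def L (i : Fin 6) : Matrix (Fin 4) (Fin 4) ℂ :=
  ((Real.sqrt (D i) : ℝ) : ℂ) • (K i).map Int.cast

lemma L_mul_star (i : Fin 6) (b a b' a' : Fin 4) :
    L i b a * star (L i b' a') = (((D i : ℤ) * K i b a * K i b' a' : ℤ) : ℂ) := by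
  have h : ((Real.sqrt (D i) : ℝ) : ℂ) * ((Real.sqrt (D i) : ℝ) : ℂ) = (D i : ℂ) := by
    rw [← Complex.ofReal_mul, Real.mul_self_sqrt (Nat.cast_nonneg _)]
    simp
  simp only [L, Matrix.smul_apply, Matrix.map_apply, smul_eq_mul, star_mul', star_intCast,
    RCLike.star_def, Complex.conj_ofReal]
  push_cast
  rw [← h]
  ring

lemma symK_L : SymK L := by
  intro b a b' a'
  simp only [L_mul_star]
  exact_mod_cast gram_symm b a b' a'

lemma symK_LT : SymK fun i => (L i)ᵀ := by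
  intro a b a' b'
  simp only [Matrix.transpose_apply, L_mul_star]
  have : ∑ i, (D i : ℤ) * K i b a * K i b' a' = ∑ i, (D i : ℤ) * K i b a' * K i b' a := by
    rw [gram_symm]
    exact Finset.sum_congr rfl fun i _ => by ring
  exact_mod_cast this

/-- the inclusion of the symmetric square. -/
def iotaZ : Matrix (Fin 4 × Fin 4) (Fin 10) ℤ :=
  Matrix.of fun p s => if mon s = p ∨ mon s = p.swap then 1 else 0

def pairs : Fin 10 → Fin 4 × Fin 4 :=
  ![(0, 1), (0, 2), (0, 3), (1, 2), (1, 3), (2, 3), (0, 0), (0, 0), (0, 0), (0, 0)]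

def pairs' : Fin 10 → Fin 4 × Fin 4 :=
  ![(2, 3), (3, 1), (1, 2), (0, 3), (2, 0), (0, 1), (0, 0), (0, 0), (0, 0), (0, 0)]

/-- antisymmetrisation along a list of index pairs. -/
def wedgeZ (f : Fin 10 → Fin 4 × Fin 4) : Matrix (Fin 10) (Fin 4 × Fin 4) ℤ :=
  Matrix.of fun r p => (if f r = p then 1 else 0) - (if (f r).swap = p then 1 else 0)

noncomputable def iotaC : Matrix (Fin 4 × Fin 4) (Fin 10) ℂ := iotaZ.map Int.cast
noncomputable def wedgeC (f : Fin 10 → Fin 4 × Fin 4) : Matrix (Fin 10) (Fin 4 × Fin 4) ℂ :=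
  (wedgeZ f).map Int.cast

lemma map_int_real {m n : Type*} (A : Matrix m n ℤ) :
    (A.map (Int.cast : ℤ → ℂ))ᴴ = (A.map Int.cast)ᵀ := by
  ext i j
  simp [Matrix.conjTranspose_apply]

noncomputable def U (p : Fin 6 × Fin 6) : Matrix (Fin 10) (Fin 10) ℂ :=
  wedgeC pairs * (L p.1 ⊗ₖ L p.2) * iotaC

noncomputable def V (p : Fin 6 × Fin 6) : Matrix (Fin 10) (Fin 10) ℂ :=
  iotaCᵀ * ((L p.1)ᵀ ⊗ₖ (L p.2)ᵀ) * (wedgeC pairs')ᵀ

lemma U_symm (X : Matrix (Fin 10) (Fin 10) ℂ) : (kraus U X)ᵀ = kraus U X :=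
  sandwich_symm (wedgeC pairs) (map_int_real _) _ symK_L.kron.transpose_eq iotaC X

lemma V_symm (X : Matrix (Fin 10) (Fin 10) ℂ) : (kraus V X)ᵀ = kraus V X :=
  sandwich_symm iotaCᵀ (by
    rw [iotaC, ← Matrix.transpose_map]; exact map_int_real _) _ symK_LT.kron.transpose_eq
    (wedgeC pairs')ᵀ X

/-- the vector of quadratic monomials. -/
def sq2 (a : Fin 4 → ℂ) (s : Fin 10) : ℂ := a (mon s).1 * a (mon s).2

lemma mon_unique : ∀ p : Fin 4 × Fin 4, ∃ s0, (mon s0 = p ∨ mon s0 = p.swap) ∧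
    ∀ s, (mon s = p ∨ mon s = p.swap) → s = s0 := by
  decide +kernel

lemma iota_mulVec (a : Fin 4 → ℂ) : iotaC *ᵥ sq2 a = fun p => a p.1 * a p.2 := by
  funext p
  obtain ⟨s0, h1, h2⟩ := mon_unique p
  simp only [iotaC, iotaZ, Matrix.mulVec, dotProduct, Matrix.map_apply, Matrix.of_apply]
  rw [Finset.sum_eq_single s0]
  · rw [if_pos h1]
    rcases h1 with h | h <;> simp [sq2, h, mul_comm]
  · intro s _ hs
    rw [if_neg (fun h => hs (h2 s h))]
    simp
  · simp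

lemma kron_mulVec (A B : Matrix (Fin 4) (Fin 4) ℂ) (a : Fin 4 → ℂ) :
    (A ⊗ₖ B) *ᵥ (fun p : Fin 4 × Fin 4 => a p.1 * a p.2)
      = fun p => (A *ᵥ a) p.1 * (B *ᵥ a) p.2 := by
  funext p
  simp only [Matrix.mulVec, dotProduct, Fintype.sum_prod_type, kroneckerMap_apply,
    Finset.sum_mul_sum]
  refine Finset.sum_congr rfl fun x _ => Finset.sum_congr rfl fun y _ => by ring

lemma wedge_mulVec (f : Fin 10 → Fin 4 × Fin 4) (x y : Fin 4 → ℂ) :
    wedgeC f *ᵥ (fun p : Fin 4 × Fin 4 => x p.1 * y p.2)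
      = fun r => x (f r).1 * y (f r).2 - x (f r).2 * y (f r).1 := by
  funext r
  simp [wedgeC, wedgeZ, Matrix.mulVec, dotProduct, sub_mul, Finset.sum_sub_distrib]

lemma form_VU (p q : Fin 6 × Fin 6) (a : Fin 4 → ℂ) :
    sq2 a ⬝ᵥ (V p * U q) *ᵥ sq2 a
      = det4 (L q.1 *ᵥ a) (L q.2 *ᵥ a) (L p.1 *ᵥ a) (L p.2 *ᵥ a) := by
  have hV : V p = (wedgeC pairs' * (L p.1 ⊗ₖ L p.2) * iotaC)ᵀ := by
    rw [V, Matrix.transpose_mul, Matrix.transpose_mul, Matrix.mul_assoc,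
      Matrix.kroneckerMap_transpose]
  rw [← Matrix.mulVec_mulVec, Matrix.dotProduct_mulVec, hV, Matrix.vecMul_transpose, U]
  simp only [← Matrix.mulVec_mulVec, iota_mulVec, kron_mulVec, wedge_mulVec, det4_eq]
  simp [dotProduct, Fin.sum_univ_succ, pairs, pairs', det4R]
  ring

lemma det4_L (i j k l : Fin 6) (a : Fin 4 → ℂ) :
    det4 (L i *ᵥ a) (L j *ᵥ a) (L k *ᵥ a) (L l *ᵥ a)
      = (((Real.sqrt (D i) * Real.sqrt (D j) * Real.sqrt (D k) * Real.sqrt (D l) : ℝ)) : ℂ)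
        * det4 ((K i).map Int.cast *ᵥ a) ((K j).map Int.cast *ᵥ a)
          ((K k).map Int.cast *ᵥ a) ((K l).map Int.cast *ᵥ a) := by
  simp only [L, Matrix.smul_mulVec, det4_eq, det4R, Pi.smul_apply, smul_eq_mul]
  push_cast
  ring

theorem choi_ne : choiMatrix (kraus V ∘ kraus U) ≠ 0 := by
  intro h
  rw [kraus_comp] at h
  obtain ⟨a, i, j, k, l, hd⟩ := det_ne
  have h0 : V (k, l) * U (i, j) = 0 := eq_zero_of_choi _ h ((k, l), (i, j))
  have := form_VU (k, l) (i, j) a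
  rw [h0, det4_L] at this
  simp only [Matrix.zero_mulVec, dotProduct_zero] at this
  have hs : ∀ i, Real.sqrt (D i) ≠ 0 := fun i =>
    Real.sqrt_ne_zero'.2 (by exact_mod_cast D_pos i)
  refine mul_ne_zero ?_ hd this.symm
  exact_mod_cast mul_ne_zero (mul_ne_zero (mul_ne_zero (hs i) (hs j)) (hs k)) (hs l)

theorem choi_no_prod (u v : Fin 10 → ℂ)
    (h : ∃ w, (choiMatrix (kraus V ∘ kraus U)).mulVec w = fun p => u p.1 * v p.2) :
    u = 0 ∨ v = 0 := by
  obtain ⟨w, hw⟩ := h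
  rw [kraus_comp] at hw
  obtain ⟨c, hc⟩ := choi_kraus_mulVec (fun p : (Fin 6 × Fin 6) × (Fin 6 × Fin 6) => V p.1 * U p.2) w
  rw [hw] at hc
  refine no_prod u v (fun i j k l => c ((k, l), (i, j)) *
    (((Real.sqrt (D i) * Real.sqrt (D j) * Real.sqrt (D k) * Real.sqrt (D l) : ℝ)) : ℂ)) fun a => ?_
  have e1 : (∑ s, u s * (a (mon s).1 * a (mon s).2)) * (∑ s, v s * (a (mon s).1 * a (mon s).2))
      = ∑ p : (Fin 6 × Fin 6) × (Fin 6 × Fin 6), c p * (sq2 a ⬝ᵥ (V p.1 * U p.2) *ᵥ sq2 a) := by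
    rw [Finset.sum_mul_sum]
    have : ∀ s t, u s * (a (mon s).1 * a (mon s).2) * (v t * (a (mon t).1 * a (mon t).2))
        = ∑ p : (Fin 6 × Fin 6) × (Fin 6 × Fin 6),
          c p * (sq2 a t * ((V p.1 * U p.2) t s * sq2 a s)) := by
      intro s t
      have := hc (s, t)
      dsimp only at this
      calc _ = (u s * v t) * (sq2 a s * sq2 a t) := by simp only [sq2]; ring
        _ = _ := by
          rw [this, Finset.sum_mul]
          exact Finset.sum_congr rfl fun p _ => by ring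
    simp only [this, dotProduct, Matrix.mulVec, Finset.mul_sum]
    rw [Finset.sum_comm]
    conv_rhs => rw [Finset.sum_comm]
    refine Finset.sum_congr rfl fun t _ => ?_
    rw [Finset.sum_comm]
  rw [e1, Fintype.sum_prod_type, Finset.sum_comm, Fintype.sum_prod_type]
  refine Finset.sum_congr rfl fun i _ => Finset.sum_congr rfl fun j _ => ?_
  rw [Fintype.sum_prod_type]
  refine Finset.sum_congr rfl fun k _ => Finset.sum_congr rfl fun l _ => ?_
  rw [form_VU, det4_L, mul_assoc (c _)]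

theorem choi_not_sep : ¬ IsSeparable (choiMatrix (kraus V ∘ kraus U)) := by
  intro h
  obtain ⟨u, v, hu, hv, hw⟩ := sep_product h choi_ne
  rcases choi_no_prod u v hw with h | h
  exacts [hu h, hv h]

theorem not_eb : ¬ IsEntanglementBreaking (kraus V ∘ kraus U) := fun h =>
  choi_not_sep (eb_choi_sep h id id)

end Crest.Agent.R345
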